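import Vale.Agent.Lib.P062.Final.Tree

namespace Vale.Agent.Lib.P062.Final

open Vale.Agent.Lib.P062.Dag2

theorem ok3 : rangeOK T C 9000 3000 = true := by decide +kernel

end Vale.Agent.Lib.P062.Final
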