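import Vale.Agent.Lib.P062.Final.C0
import Vale.Agent.Lib.P062.Final.C1
import Vale.Agent.Lib.P062.Final.C2
import Vale.Agent.Lib.P062.Final.C3
import Vale.Agent.Lib.P062.Final.C4
import Vale.Agent.Lib.P062.Final.C5
import Vale.Agent.Lib.P062.Final.C6

namespace Vale.Agent.Lib.P062.Final

open Vale.Agent.Lib.P062.Dag2

/-- All nodes pass the check. -/
theorem allOK : AllOK T C 18457 := by
  have h0 := AllOK.zero T C
  have h1 : AllOK T C 3000 := AllOK.add h0 ok0 rfl
  have h2 : AllOK T C 6000 := AllOK.add h1 ok1 rfl
  have h3 : AllOK T C 9000 := AllOK.add h2 ok2 rfl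
  have h4 : AllOK T C 12000 := AllOK.add h3 ok3 rfl
  have h5 : AllOK T C 15000 := AllOK.add h4 ok4 rfl
  have h6 : AllOK T C 18000 := AllOK.add h5 ok5 rfl
  have h7 : AllOK T C 18457 := AllOK.add h6 ok6 rfl
  exact h7

/-- The index of the root claim. -/
def rootIdx : ℕ := 18456

theorem root_lt : rootIdx < 18457 := by decide

/-- The code of the first stone in the frame of the root claim. -/
def c0 : ℕ := 494

/-- The horizontal position of the origin in the frame of the root claim. -/
def ox : ℕ := 14

/-- The vertical position of the origin in the frame of the root claim. -/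
def oy : ℕ := 15

end Vale.Agent.Lib.P062.Final
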