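import Vale.Agent.Lib.P062.Main
import Vale.Agent.Lib.P062.Final.All

/-!
Assembly of the full answer: Breaker's reply next to the first stone of Maker also loses.
-/

namespace Vale.Agent.Lib.P062.Final

open Vale.Agent.Lib.P062 Vale.Agent.Lib.P062.Dag2

/-- The masks of the root claim: the single stone at the origin, and a zone without `(1, 0)`. -/
theorem root_masks :
    rM (rc T rootIdx) = 1 <<< c0 ∧ (rZ (rc T rootIdx)).testBit (c0 + 1) = false := by
  decide +kernel

/-- Breaker's reply `(1, 0)` to Maker's first stone `(0, 0)` loses. -/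
theorem adjacent_reply : ∃ n, MakerForces n {((0 : ℤ), (0 : ℤ))} {((1 : ℤ), (0 : ℤ))} := by
  refine ⟨rootIdx + 1, ?_⟩
  have hg := all_good allOK rootIdx root_lt
  refine hg (-(ox : ℤ), -(oy : ℤ)) _ _ ?_ ?_ ?_
  · intro c hc
    rw [root_masks.1, Nat.one_shiftLeft, Nat.testBit_two_pow] at hc
    have h : c0 = c := by simpa using hc
    subst h
    simp [tr, dec, c0, ox, oy]
  · intro c hc hmem
    have h1 : tr (-(ox : ℤ), -(oy : ℤ)) (dec c) = ((1 : ℤ), (0 : ℤ)) := by simpa using hmem
    have h2 : tr (-(ox : ℤ), -(oy : ℤ)) (dec (c0 + 1)) = ((1 : ℤ), (0 : ℤ)) := by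
      simp [tr, dec, c0, ox, oy]
    have h3 : c = c0 + 1 := tr_dec_inj (h1.trans h2.symm)
    subst h3
    rw [root_masks.2] at hc
    exact absurd hc (by simp)
  · intro x hx
    rw [Finset.mem_singleton] at hx ⊢
    subst hx
    simp

/-- Every reply of Breaker to the first stone of Maker loses, within a uniform number of moves. -/
theorem all_replies : ∃ n, ∀ y : Cell, y ≠ (0, 0) → MakerForces n {((0 : ℤ), (0 : ℤ))} {y} := by
  obtain ⟨n1, h1⟩ := replies_main
  obtain ⟨n2, h2⟩ := adjacent_reply
  have h2' := MakerForces.mono (le_max_right n1 n2) h2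
  refine ⟨max n1 n2, fun y hy0 => ?_⟩
  by_cases hy1 : y = (1, 0)
  · rw [hy1]
    exact h2'
  by_cases hy2 : y = (-1, 0)
  · have := reply_transport (a := -1) (b := 0) (c := 0) (d := 1) (a' := -1) (b' := 0) (c' := 0)
      (d' := 1) (by simp [IsSignedPerm]) (by intro p; simp [act]) (by intro p; simp [act]) h2'
    have e : act (-1) 0 0 1 ((1 : ℤ), (0 : ℤ)) = (-1, 0) := by simp [act]
    rw [e] at this
    rw [hy2]
    exact this
  by_cases hy3 : y = (0, 1)
  · have := reply_transport (a := 0) (b := 1) (c := 1) (d := 0) (a' := 0) (b' := 1) (c' := 1)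
      (d' := 0) (by simp [IsSignedPerm]) (by intro p; simp [act]) (by intro p; simp [act]) h2'
    have e : act 0 1 1 0 ((1 : ℤ), (0 : ℤ)) = (0, 1) := by simp [act]
    rw [e] at this
    rw [hy3]
    exact this
  by_cases hy4 : y = (0, -1)
  · have := reply_transport (a := 0) (b := 1) (c := -1) (d := 0) (a' := 0) (b' := -1) (c' := 1)
      (d' := 0) (by simp [IsSignedPerm]) (by intro p; simp [act]) (by intro p; simp [act]) h2'
    have e : act 0 1 (-1) 0 ((1 : ℤ), (0 : ℤ)) = (0, -1) := by simp [act]
    rw [e] at this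
    rw [hy4]
    exact this
  exact MakerForces.mono (le_max_left n1 n2) (h1 y hy0 hy1 hy2 hy3 hy4)

/-- Maker wins the Snaky achievement game on the empty plane, within a finite number of moves. -/
theorem maker_wins : ∃ n, MakerForces n ∅ ∅ := by
  obtain ⟨n, hn⟩ := all_replies
  exact ⟨n + 1, game_of_replies hn⟩

end Vale.Agent.Lib.P062.Final
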